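import Vale.Agent.P093.Main

open scoped ENNReal

namespace Vale.Agent.Results.P093.Attained

open Vale.Agent.P093

theorem result {X : Type} [TopologicalSpace X] [CompactSpace X]
    [TopologicalSpace.MetrizableSpace X] [Infinite X] (h : X ≃ₜ X) (hm : IsMinimal h)
    (A : Type) [CStarAlgebra A] [PartialOrder A] [StarOrderedRing A] (hA : IsCrossed h A)
    (ha : ∃ U : Finset (Set X), IsCov U ∧ mdimU h U = mdim h) :
    mdim h / 2 ≤ rc A := by
  obtain ⟨U, hU, ha⟩ := ha
  let _ := TopologicalSpace.metrizableSpaceMetric X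
  exact main hm hU ha hA

end Vale.Agent.Results.P093.Attained
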