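import Vale.Agent.P093.Cube

open Filter
open scoped ENNReal

namespace Vale.Agent.Results.P093.Cubes

open Vale.Agent.P093

theorem result {X : Type} [TopologicalSpace X] [CompactSpace X]
    [TopologicalSpace.MetrizableSpace X] [Infinite X] (h : X ≃ₜ X) (hm : IsMinimal h)
    (A : Type) [CStarAlgebra A] [PartialOrder A] [StarOrderedRing A] (hA : IsCrossed h A) :
    (∀ U, IsCov U → mdimU h U = mdim h ∨ mdimU h U ≤ cubU h U → mdimU h U / 2 ≤ rc A) ∧
    (mdim h ≠ ⊤ → mdim h ≤ ⨆ (U : Finset (Set X)) (_ : IsCov U), cubU h U →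
      mdim h / 2 ≤ rc A) ∧
    ∀ (D : ℕ) (φ : Fin D → C(X, ℝ)) (J : ∀ N : ℕ, Finset (Fin N × Fin D))
      (p : ∀ N, C(J N → unitInterval, X)),
      (∀ N y (c : J N), φ c.1.2 ((h ^ (c.1.1 : ℕ)) (p N y)) = y c) →
      mdim h ≤ limsup (fun N : ℕ => ((J N).card : ℝ≥0∞) / N) atTop → mdim h / 2 ≤ rc A := by
  let _ := TopologicalSpace.metrizableSpaceMetric X
  have h0 := rmd_main hm hA
  refine ⟨fun U hU hc => le_trans (ENNReal.div_le_div_right ?_ _) h0,
    fun hf hc => cub_sup hf hc ▸ h0, fun D φ J p hp hc => ?_⟩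
  · exact hc.elim (fun e => (e.trans (rmd_att hU e).symm).le) (cub_cov hU)
  · obtain ⟨U, hU, h1⟩ := free_att φ J p hp
    exact rmd_att hU (le_antisymm (le_mdim hU) (hc.trans h1)) ▸ h0

end Vale.Agent.Results.P093.Cubes
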