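import Vale.Agent.P093.Cor

open Filter TopologicalSpace
open scoped ENNReal

namespace Vale.Agent.Results.P093.Realized

open Vale.Agent.P093

theorem result :
    (∀ (X : Type) [TopologicalSpace X] [CompactSpace X] [MetrizableSpace X] [Infinite X]
      (h : X ≃ₜ X) (A : Type) [CStarAlgebra A] [PartialOrder A] [StarOrderedRing A],
      IsMinimal h → IsCrossed h A → rmd h / 2 ≤ rc A) ∧
    (∀ (X : Type) [TopologicalSpace X] [CompactSpace X] [MetrizableSpace X] [Nonempty X]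
      (h : X ≃ₜ X), rmd h ≤ mdim h ∧
        ((∃ U, IsCov U ∧ mdimU h U = mdim h) → rmd h = mdim h) ∧
        (mdim h ≠ ⊤ → (∀ t < mdim h, ∃ U, IsCov U ∧ ∃ T : ℕ → Test X, t ≤ rel h T U ∧
          limsup (fun N : ℕ => cdim (T N).Y / N) atTop ≤ rel h T U) → rmd h = mdim h)) ∧
    ∀ (X X₀ X₁ : Type) [TopologicalSpace X] [CompactSpace X] [MetrizableSpace X]
      [TopologicalSpace X₀] [CompactSpace X₀] [MetrizableSpace X₀] [TopologicalSpace X₁]
      [CompactSpace X₁] [Nonempty X₁] (h : X ≃ₜ X) (h₀ : X₀ ≃ₜ X₀) (h₁ : X₁ ≃ₜ X₁)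
      (e : X ≃ₜ X₀ × X₁), (∀ x, e (h x) = (h₀ (e x).1, h₁ (e x).2)) → rmd h₀ ≤ rmd h := by
  refine ⟨fun X _ _ _ _ h A _ _ _ hm hA => ?_, fun X _ _ _ _ h => ?_,
    fun X X₀ X₁ _ _ _ _ _ _ _ _ _ h h₀ h₁ e he => ?_⟩
  · let _ := metrizableSpaceMetric X
    exact rmd_main hm hA
  · let _ := metrizableSpaceMetric X
    exact ⟨rmd_le, fun ⟨_, hU, ha⟩ => rmd_att hU ha, rmd_dim⟩
  · let _ := metrizableSpaceMetric X
    let _ := metrizableSpaceMetric X₀
    exact rmd_prod he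

end Vale.Agent.Results.P093.Realized
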